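import Vale.Agent.P181.Howe

namespace Vale.Agent.Results.P181.Quadratic

theorem result (a b : ℕ) (hb : (a - 1) ^ 2 ≤ b)
    (V : Type) [AddCommGroup V] [Module ℂ V] [FiniteDimensional ℂ V] :
    ∃ Ψ : SymmetricPower ℂ (Fin a) (SymmetricPower ℂ (Fin b) V) →ₗ[ℂ]
        SymmetricPower ℂ (Fin b) (SymmetricPower ℂ (Fin a) V),
      (∀ v : Fin a → Fin b → V,
        Ψ (SymmetricPower.tprod ℂ fun i => SymmetricPower.tprod ℂ fun j => v i j)
          = ∑ σ : Fin a → Equiv.Perm (Fin b),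
              SymmetricPower.tprod ℂ fun j => SymmetricPower.tprod ℂ fun i => v i (σ i j)) ∧
      Function.Injective Ψ ∧
      ∃ (ρ₁ : Representation ℂ (V ≃ₗ[ℂ] V)
            (SymmetricPower ℂ (Fin a) (SymmetricPower ℂ (Fin b) V)))
        (ρ₂ : Representation ℂ (V ≃ₗ[ℂ] V)
            (SymmetricPower ℂ (Fin b) (SymmetricPower ℂ (Fin a) V))),
        (∀ (g : V ≃ₗ[ℂ] V) (v : Fin a → Fin b → V),
          ρ₁ g (SymmetricPower.tprod ℂ fun i => SymmetricPower.tprod ℂ fun j => v i j)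
            = SymmetricPower.tprod ℂ fun i => SymmetricPower.tprod ℂ fun j => g (v i j)) ∧
        (∀ (g : V ≃ₗ[ℂ] V) (w : Fin b → Fin a → V),
          ρ₂ g (SymmetricPower.tprod ℂ fun j => SymmetricPower.tprod ℂ fun i => w j i)
            = SymmetricPower.tprod ℂ fun j => SymmetricPower.tprod ℂ fun i => g (w j i)) ∧
        ∀ (g : V ≃ₗ[ℂ] V) (x : SymmetricPower ℂ (Fin a) (SymmetricPower ℂ (Fin b) V)),
          Ψ (ρ₁ g x) = ρ₂ g (Ψ x) := by
  obtain ⟨Ψ, hΨ⟩ := Vale.Agent.P181.exists_psi (ι := Fin a) (κ := Fin b) (V := V)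
  refine ⟨Ψ, hΨ, Vale.Agent.P181.psi_injective (by simpa using hb) Ψ hΨ,
    Vale.Agent.P181.rep2 (Fin a) (Fin b) V, Vale.Agent.P181.rep2 (Fin b) (Fin a) V,
    fun g v => Vale.Agent.P181.rep2_tprod g v, fun g w => Vale.Agent.P181.rep2_tprod g w,
    fun g x => ?_⟩
  have : Ψ ∘ₗ Vale.Agent.P181.rep2 (Fin a) (Fin b) V g
      = Vale.Agent.P181.rep2 (Fin b) (Fin a) V g ∘ₗ Ψ := by
    refine Vale.Agent.P181.sext2 fun v => ?_
    rw [LinearMap.comp_apply, LinearMap.comp_apply, Vale.Agent.P181.rep2_tprod, hΨ, hΨ, map_sum]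
    refine Finset.sum_congr rfl fun σ _ => ?_
    exact (Vale.Agent.P181.rep2_tprod g fun j i => v i (σ i j)).symm
  exact DFunLike.congr_fun this x

end Vale.Agent.Results.P181.Quadratic
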